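import Vale.Agent.P207.BlkE2
import Vale.Agent.P207.H891.VarPrinc

/-!
# P207 (helper476): entropies of the time maps of a continuous flow (Abramov's formula)
-/

open scoped ENNReal Topology symmDiff
open MeasureTheory Set Filter

noncomputable section

namespace Vale.Agent.P207.H476.Abr

open Vale.Agent.P207

/-! ### growth rates -/

theorem rate {u v : ℕ → ℝ} {m : ℕ → ℕ} {κ ε : ℝ} (hκ : 0 < κ)
    (hm : Tendsto m atTop atTop) (hm' : ∀ n, (m n : ℝ) ≤ κ * n + 1)
    (huv : ∀ n, u n ≤ v (m n) + ε * n) :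
    limsup (fun n : ℕ => ENNReal.ofReal (u n / n)) atTop ≤
      ENNReal.ofReal κ * limsup (fun n : ℕ => ENNReal.ofReal (v n / n)) atTop +
        ENNReal.ofReal ε := by
  set L := limsup (fun n : ℕ => ENNReal.ofReal (v n / n)) atTop with hL
  by_cases hT : L = ⊤
  · rw [hT, ENNReal.mul_top (by simpa using hκ), top_add]
    exact le_top
  refine ENNReal.le_of_forall_pos_le_add fun δ hδ _ => ?_
  have hδ' : (0 : ℝ) < δ := hδ
  set a : ℝ := L.toReal + δ / (2 * κ) with ha
  have hL0 : 0 ≤ L.toReal := ENNReal.toReal_nonneg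
  have hq : 0 < (δ : ℝ) / (2 * κ) := by positivity
  have ha0 : 0 < a := by rw [ha]; linarith
  have hLa : L < ENNReal.ofReal a := by
    rw [← ENNReal.ofReal_toReal hT]
    exact (ENNReal.ofReal_lt_ofReal_iff ha0).2 (by rw [ha]; linarith)
  have h1 : ∀ᶠ q : ℕ in atTop, ENNReal.ofReal (v q / q) < ENNReal.ofReal a :=
    eventually_lt_of_limsup_lt (by rw [← hL]; exact hLa)
  have h2 : ∀ᶠ n : ℕ in atTop, v (m n) ≤ a * m n := by
    filter_upwards [hm.eventually h1, hm.eventually (eventually_gt_atTop 0)] with n h3 h4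
    have h5 : v (m n) / m n < a := (ENNReal.ofReal_lt_ofReal_iff ha0).1 h3
    have h6 : (0 : ℝ) < m n := by exact_mod_cast h4
    rw [div_lt_iff₀ h6] at h5
    exact h5.le
  have h3 : ∀ᶠ n : ℕ in atTop, a / n < δ / 2 := by
    have h := tendsto_const_div_atTop_nhds_zero_nat a
    exact h.eventually (gt_mem_nhds (by positivity))
  have h4 : ∀ᶠ n : ℕ in atTop, ENNReal.ofReal (u n / n) ≤
      ENNReal.ofReal (κ * a + ε + δ / 2) := by
    filter_upwards [h2, h3, eventually_gt_atTop 0] with n e2 e3 e4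
    apply ENNReal.ofReal_le_ofReal
    have hn : (0 : ℝ) < n := by exact_mod_cast e4
    rw [div_lt_iff₀ hn] at e3
    rw [div_le_iff₀ hn]
    have h5 : a * m n ≤ a * (κ * n + 1) := mul_le_mul_of_nonneg_left (hm' n) ha0.le
    have h6 := huv n
    nlinarith
  calc limsup (fun n : ℕ => ENNReal.ofReal (u n / n)) atTop
      ≤ ENNReal.ofReal (κ * a + ε + δ / 2) := limsup_le_of_le (by isBoundedDefault) h4
    _ = ENNReal.ofReal (κ * L.toReal + ε + δ) := by
        congr 1
        rw [ha]
        field_simp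
        ring
    _ ≤ ENNReal.ofReal (κ * L.toReal + ε) + ENNReal.ofReal δ := ENNReal.ofReal_add_le
    _ ≤ ENNReal.ofReal κ * L + ENNReal.ofReal ε + δ := by
        rw [ENNReal.ofReal_coe_nnreal]
        gcongr
        refine ENNReal.ofReal_add_le.trans ?_
        rw [ENNReal.ofReal_mul hκ.le, ENNReal.ofReal_toReal hT]

/-- decomposition of a time -/
theorem split_time {N : ℕ} (hN : 0 < N) {r : ℝ} (hr : 0 ≤ r) : ∃ (i j : ℕ) (t : ℝ), j < N ∧
    0 ≤ t ∧ t ≤ 1 / N ∧ r = t + ((j : ℝ) / N + i) ∧ i ≤ ⌊r⌋₊ := by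
  have hN' : (0 : ℝ) < N := by exact_mod_cast hN
  set i := ⌊r⌋₊ with hi
  have h1 : (i : ℝ) ≤ r := Nat.floor_le hr
  have h2 : r < i + 1 := Nat.lt_floor_add_one r
  set j := ⌊(r - i) * N⌋₊ with hj
  have h0 : 0 ≤ (r - i) * N := mul_nonneg (by linarith) hN'.le
  have h3 : (j : ℝ) ≤ (r - i) * N := Nat.floor_le h0
  have h4 : (r - i) * N < j + 1 := Nat.lt_floor_add_one _
  refine ⟨i, j, r - i - j / N, ?_, ?_, ?_, by ring, le_rfl⟩
  · have h5 : (j : ℝ) < N := by nlinarith
    exact_mod_cast h5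
  · have h6 : (j : ℝ) / N ≤ r - i := by rw [div_le_iff₀ hN']; exact h3
    linarith
  · have h7 : r - i ≤ ((j : ℝ) + 1) / N := by rw [le_div_iff₀ hN']; exact h4.le
    rw [add_div] at h7
    linarith

/-- the number of unit times -/
def qn (s : ℝ) (n : ℕ) : ℕ := ⌊(n : ℝ) * s⌋₊ + 1

theorem qn_le {s : ℝ} (hs : 0 < s) (n : ℕ) : (qn s n : ℝ) ≤ s * n + 1 := by
  unfold qn
  push_cast
  have := Nat.floor_le (show (0 : ℝ) ≤ (n : ℝ) * s by positivity)
  linarith

theorem tendsto_qn {s : ℝ} (hs : 0 < s) : Tendsto (qn s) atTop atTop := by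
  have h1 : Tendsto (fun n : ℕ => (n : ℝ) * s) atTop atTop :=
    tendsto_natCast_atTop_atTop.atTop_mul_const hs
  exact (tendsto_add_atTop_nat 1).comp (tendsto_nat_floor_atTop.comp h1)

theorem lt_qn {s : ℝ} (hs : 0 < s) {k n : ℕ} (hk : k < n) {i : ℕ}
    (hi : i ≤ ⌊(k : ℝ) * s⌋₊) : i < qn s n := by
  refine lt_of_le_of_lt (hi.trans (Nat.floor_le_floor ?_)) (Nat.lt_succ_self _)
  have : (k : ℝ) ≤ n := by exact_mod_cast hk.le
  exact mul_le_mul_of_nonneg_right this hs.le

/-! ### flows -/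

/-- continuous flows -/
structure IsFl {X : Type} [TopologicalSpace X] (φ : ℝ → X → X) : Prop where
  cont : Continuous fun q : ℝ × X => φ q.1 q.2
  zero : ∀ x, φ 0 x = x
  add : ∀ s t x, φ (s + t) x = φ s (φ t x)

variable {X : Type} [TopologicalSpace X] {φ : ℝ → X → X}

theorem IsFl.iterate (h : IsFl φ) (s : ℝ) (n : ℕ) (x : X) : (φ s)^[n] x = φ (n * s) x := by
  induction n generalizing x with
  | zero => simp [h.zero]
  | succ n ih =>
    rw [Function.iterate_succ_apply, ih, ← h.add]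
    congr 1
    push_cast
    ring

theorem IsFl.cont_t (h : IsFl φ) (t : ℝ) : Continuous (φ t) :=
  h.cont.comp (by fun_prop : Continuous fun x : X => (t, x))

theorem IsFl.scale (h : IsFl φ) (s : ℝ) : IsFl (fun t => φ (s * t)) where
  cont := h.cont.comp (by fun_prop : Continuous fun q : ℝ × X => (s * q.1, q.2))
  zero x := by rw [mul_zero, h.zero]
  add a b x := by rw [mul_add, h.add]

/-! ### topological entropy -/

theorem exists_cover [CompactSpace X] (h : IsFl φ) {k : ℕ} {U : Fin k → Set X}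
    (hU : ∀ i, IsOpen (U i)) (hcov : ⋃ i, U i = univ) :
    ∃ (N l : ℕ) (V : Fin l → Set X) (σ : Fin l → Fin k), 0 < N ∧ (∀ i, IsOpen (V i)) ∧
      ⋃ i, V i = univ ∧ ∀ i, ∀ x ∈ V i, ∀ t : ℝ, 0 ≤ t → t ≤ 1 / N → φ t x ∈ U (σ i) := by
  have h0 : ∀ x, ∃ i, x ∈ U i := fun x => mem_iUnion.1 (hcov ▸ mem_univ x)
  choose c hc using h0
  have h1 : ∀ x, ∃ δ > (0 : ℝ), ∃ V : Set X, IsOpen V ∧ x ∈ V ∧
      ∀ y ∈ V, ∀ t : ℝ, 0 ≤ t → t < δ → φ t y ∈ U (c x) := by
    intro x
    have h2 : ∀ᶠ q : ℝ × X in 𝓝 (0, x), φ q.1 q.2 ∈ U (c x) :=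
      h.cont.continuousAt.eventually ((hU (c x)).mem_nhds (by
        change φ 0 x ∈ U (c x)
        rw [h.zero]; exact hc x))
    rw [nhds_prod_eq] at h2
    obtain ⟨pa, ha, pb, hb, hab⟩ := eventually_prod_iff.1 h2
    obtain ⟨δ, hδ, hδ'⟩ := Metric.eventually_nhds_iff.1 ha
    obtain ⟨V, hV, hVo, hxV⟩ := eventually_nhds_iff.1 hb
    refine ⟨δ, hδ, V, hVo, hxV, fun y hy t ht0 ht => hab (hδ' ?_) (hV y hy)⟩
    rw [Real.dist_eq, sub_zero, abs_of_nonneg ht0]
    exact ht
  choose δ hδ V hVo hxV hV using h1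
  obtain ⟨t, ht⟩ := isCompact_univ.elim_finite_subcover V hVo
    (fun x _ => mem_iUnion.2 ⟨x, hxV x⟩)
  have h3 : ∀ᶠ N : ℕ in atTop, 0 < N ∧ ∀ x ∈ t, 1 / (N : ℝ) < δ x := by
    refine (eventually_gt_atTop 0).and ((Filter.eventually_all_finset t).2 fun x _ => ?_)
    have h4 := tendsto_const_div_atTop_nhds_zero_nat (1 : ℝ)
    exact h4.eventually (gt_mem_nhds (hδ x))
  obtain ⟨N, hN, hN'⟩ := h3.exists
  refine ⟨N, t.card, fun i => V (t.equivFin.symm i), fun i => c (t.equivFin.symm i), hN,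
    fun i => hVo _, ?_, fun i x hx s hs0 hs => hV _ x hx s hs0 (hs.trans_lt (hN' _ ?_))⟩
  · refine eq_univ_of_forall fun x => ?_
    obtain ⟨y, hy, hx⟩ := mem_iUnion₂.1 (ht (mem_univ x))
    refine mem_iUnion.2 ⟨t.equivFin ⟨y, hy⟩, ?_⟩
    simpa using hx
  · exact (t.equivFin.symm i).2

theorem topEntropy_le [CompactSpace X] (h : IsFl φ) {s : ℝ} (hs : 0 < s) :
    topEntropy (φ s) ≤ ENNReal.ofReal s * topEntropy (φ 1) := by
  classical
  conv_lhs => unfold topEntropy
  refine iSup_le fun k => iSup_le fun U => iSup_le fun hU => iSup_le fun hcov => ?_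
  obtain ⟨N, l, V, σ, hN, hV, hVcov, hσ⟩ := exists_cover h hU hcov
  have hN' : (0 : ℝ) < N := by exact_mod_cast hN
  set K := Fintype.card (Fin N → Fin l) with hK
  let e : (Fin N → Fin l) ≃ Fin K := Fintype.equivFin _
  let V' : Fin K → Set X := fun i => ⋂ j : Fin N, (φ ((j : ℕ) / (N : ℝ))) ⁻¹' V (e.symm i j)
  have hV'o : ∀ i, IsOpen (V' i) := fun i =>
    isOpen_iInter_of_finite fun j => (hV _).preimage (h.cont_t _)
  have hV'cov : ⋃ i, V' i = univ := by
    refine eq_univ_of_forall fun x => ?_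
    have h1 : ∀ j : Fin N, ∃ i, φ ((j : ℕ) / (N : ℝ)) x ∈ V i := fun j =>
      mem_iUnion.1 (hVcov ▸ mem_univ _)
    choose w hw using h1
    refine mem_iUnion.2 ⟨e w, mem_iInter.2 fun j => ?_⟩
    simp only [mem_preimage, Equiv.symm_apply_apply]
    exact hw j
  have key : ∀ n, coverNum (φ s) U n ≤ coverNum (φ 1) V' (qn s n) := by
    intro n
    obtain ⟨W, hW, hWx⟩ := exists_coverNum (φ 1) V' hV'cov (qn s n)
    have h1 : ∀ k : Fin n, ∃ (i : Fin (qn s n)) (j : Fin N) (t : ℝ), 0 ≤ t ∧ t ≤ 1 / N ∧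
        (k : ℕ) * s = t + (((j : ℕ) : ℝ) / N + (i : ℕ)) := by
      intro k
      obtain ⟨i, j, t, hj, ht0, ht, hr, hi⟩ := split_time hN
        (r := (k : ℕ) * s) (by positivity)
      exact ⟨⟨i, lt_qn hs k.2 hi⟩, ⟨j, hj⟩, t, ht0, ht, hr⟩
    choose i j t ht0 ht hr using h1
    rw [← hW]
    refine (coverNum_le (φ s) U n (W.image fun w : Fin (qn s n) → Fin K => fun k : Fin n =>
      σ (e.symm (w (i k)) (j k))) fun x => ?_).trans Finset.card_image_le
    obtain ⟨w, hw, hwx⟩ := hWx x
    refine ⟨_, Finset.mem_image_of_mem _ hw, fun k => ?_⟩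
    have h2 := hwx (i k)
    rw [h.iterate, mul_one] at h2
    have h3 := mem_iInter.1 h2 (j k)
    rw [mem_preimage, ← h.add] at h3
    have h4 := hσ _ _ h3 (t k) (ht0 k) (ht k)
    rw [← h.add, ← hr k] at h4
    rw [h.iterate]
    exact h4
  have h2 : ∀ n, Real.log (coverNum (φ s) U n) ≤
      Real.log (coverNum (φ 1) V' (qn s n)) + 0 * n := by
    intro n
    rw [zero_mul, add_zero]
    rcases Nat.eq_zero_or_pos (coverNum (φ s) U n) with h0 | h0
    · rw [h0, Nat.cast_zero, Real.log_zero]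
      exact Real.log_natCast_nonneg _
    · exact Real.log_le_log (by exact_mod_cast h0) (by exact_mod_cast key n)
  have h3 := rate (u := fun n => Real.log (coverNum (φ s) U n))
    (v := fun n => Real.log (coverNum (φ 1) V' n)) hs (tendsto_qn hs) (qn_le hs) h2
  rw [ENNReal.ofReal_zero, add_zero] at h3
  refine h3.trans ?_
  gcongr
  unfold topEntropy
  exact le_iSup_of_le K (le_iSup_of_le V' (le_iSup_of_le hV'o (le_iSup_of_le hV'cov le_rfl)))

/-- **the topological entropy of the time maps of a flow** -/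
theorem topEntropy_flow [CompactSpace X] (h : IsFl φ) {s : ℝ} (hs : 0 < s) :
    topEntropy (φ s) = ENNReal.ofReal s * topEntropy (φ 1) := by
  refine le_antisymm (topEntropy_le h hs) ?_
  have h1 := topEntropy_le (h.scale s) (s := s⁻¹) (by positivity)
  simp only [mul_inv_cancel₀ hs.ne', mul_one] at h1
  calc ENNReal.ofReal s * topEntropy (φ 1)
      ≤ ENNReal.ofReal s * (ENNReal.ofReal s⁻¹ * topEntropy (φ s)) := by gcongr
    _ = topEntropy (φ s) := by
        rw [← mul_assoc, ← ENNReal.ofReal_mul hs.le, mul_inv_cancel₀ hs.ne', ENNReal.ofReal_one,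
          one_mul]


/-! ### measure entropy -/

section Finite

variable {A B D : Type} [Fintype A] [Fintype B] [Fintype D]

theorem nml_le {p a b c : ℝ} (hp : 0 ≤ p) (ha : p ≤ a) (hb : p ≤ b) (hc : b ≤ c) :
    Real.negMulLog p ≤ -(p * Real.log a) - p * Real.log b + p * Real.log c + (a * b / c - p) := by
  rcases hp.eq_or_lt with h0 | h0
  · rw [← h0] at ha hb ⊢
    simp only [Real.negMulLog_zero, zero_mul, neg_zero, sub_zero, add_zero, zero_add]
    have : 0 ≤ c := hb.trans hc
    positivity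
  · have ha0 : 0 < a := h0.trans_le ha
    have hb0 : 0 < b := h0.trans_le hb
    have hc0 : 0 < c := hb0.trans_le hc
    have h1 := Real.log_le_sub_one_of_pos (show 0 < a * b / c / p by positivity)
    rw [Real.log_div (by positivity) h0.ne', Real.log_div (by positivity) hc0.ne',
      Real.log_mul ha0.ne' hb0.ne'] at h1
    have h2 := mul_le_mul_of_nonneg_left h1 h0.le
    have h3 : p * (a * b / c / p - 1) = a * b / c - p := by field_simp
    rw [h3] at h2
    rw [Real.negMulLog]
    nlinarith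

/-- strong subadditivity, for finite arrays -/
theorem ssa [DecidableEq B] (P : A → D → ℝ) (hP : ∀ a d, 0 ≤ P a d) (π : D → B) :
    ∑ a, ∑ d, Real.negMulLog (P a d) +
      ∑ b, Real.negMulLog (∑ a, ∑ d, if π d = b then P a d else 0) ≤
    ∑ d, Real.negMulLog (∑ a, P a d) +
      ∑ a, ∑ b, Real.negMulLog (∑ d, if π d = b then P a d else 0) := by
  classical
  set Q : A → B → ℝ := fun a b => ∑ d, if π d = b then P a d else 0 with hQ
  set R : D → ℝ := fun d => ∑ a, P a d with hR
  set T : B → ℝ := fun b => ∑ a, Q a b with hT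
  have hQ0 : ∀ a b, 0 ≤ Q a b := fun a b => Finset.sum_nonneg fun d _ => by
    split_ifs
    · exact hP a d
    · exact le_rfl
  have hR0 : ∀ d, 0 ≤ R d := fun d => Finset.sum_nonneg fun a _ => hP a d
  have hPQ : ∀ a d, P a d ≤ Q a (π d) := fun a d => by
    have h1 := Finset.single_le_sum (f := fun d' => if π d' = π d then P a d' else 0)
      (fun d' _ => by
        split_ifs
        · exact hP a d'
        · exact le_rfl) (Finset.mem_univ d)
    simpa using h1
  have hPR : ∀ a d, P a d ≤ R d := fun a d =>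
    Finset.single_le_sum (f := fun a => P a d) (fun a _ => hP a d) (Finset.mem_univ a)
  have hRT : ∀ d, R d ≤ T (π d) := fun d => Finset.sum_le_sum fun a _ => hPQ a d
  -- regrouping
  have reg : ∀ (F : A → B → ℝ), ∑ a, ∑ d, P a d * F a (π d) = ∑ a, ∑ b, Q a b * F a b := by
    intro F
    refine Finset.sum_congr rfl fun a _ => ?_
    simp only [hQ, Finset.sum_mul]
    rw [Finset.sum_comm]
    refine Finset.sum_congr rfl fun d _ => ?_
    simp [ite_mul]
  have key : ∑ a, ∑ d, Real.negMulLog (P a d) ≤ ∑ a, ∑ d,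
      (-(P a d * Real.log (Q a (π d))) - P a d * Real.log (R d) + P a d * Real.log (T (π d)) +
        (Q a (π d) * R d / T (π d) - P a d)) :=
    Finset.sum_le_sum fun a _ => Finset.sum_le_sum fun d _ =>
      nml_le (hP a d) (hPQ a d) (hPR a d) (hRT d)
  have e1 : ∑ a, ∑ d, P a d * Real.log (Q a (π d)) = -∑ a, ∑ b, Real.negMulLog (Q a b) := by
    rw [reg fun a b => Real.log (Q a b), ← Finset.sum_neg_distrib]
    refine Finset.sum_congr rfl fun a _ => ?_
    rw [← Finset.sum_neg_distrib]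
    refine Finset.sum_congr rfl fun b _ => ?_
    rw [Real.negMulLog]; ring
  have e2 : ∑ a, ∑ d, P a d * Real.log (R d) = -∑ d, Real.negMulLog (R d) := by
    rw [Finset.sum_comm, ← Finset.sum_neg_distrib]
    refine Finset.sum_congr rfl fun d _ => ?_
    rw [← Finset.sum_mul, Real.negMulLog]; ring
  have e3 : ∑ a, ∑ d, P a d * Real.log (T (π d)) = -∑ b, Real.negMulLog (T b) := by
    rw [reg fun a b => Real.log (T b), Finset.sum_comm, ← Finset.sum_neg_distrib]
    refine Finset.sum_congr rfl fun b _ => ?_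
    rw [← Finset.sum_mul, Real.negMulLog]; ring
  have e4 : ∑ a, ∑ d, Q a (π d) * R d / T (π d) ≤ ∑ a, ∑ d, P a d := by
    rw [Finset.sum_comm, Finset.sum_comm (f := fun a d => P a d)]
    refine Finset.sum_le_sum fun d _ => ?_
    have h1 : ∑ a, Q a (π d) * R d / T (π d) = T (π d) * R d / T (π d) := by
      rw [← Finset.sum_div, ← Finset.sum_mul]
    rw [h1]
    change _ ≤ R d
    rcases ((hR0 d).trans (hRT d)).eq_or_lt with h0 | h0
    · rw [← h0, div_zero]; exact hR0 d
    · rw [mul_div_assoc, mul_comm, div_mul_cancel₀ _ h0.ne']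
  have e5 : ∑ b, Real.negMulLog (∑ a, ∑ d, if π d = b then P a d else 0) =
      ∑ b, Real.negMulLog (T b) := rfl
  rw [e5]
  simp only [Finset.sum_add_distrib, Finset.sum_sub_distrib, Finset.sum_neg_distrib] at key
  change _ ≤ ∑ d, Real.negMulLog (R d) + ∑ a, ∑ b, Real.negMulLog (Q a b)
  linarith

end Finite


section Meas

variable {Y : Type} [MeasurableSpace Y] {μ : Measure Y} [IsProbabilityMeasure μ]
variable {A B D : Type} [Fintype A] [Fintype B] [Fintype D]

theorem real_comp [DecidableEq B] {F : Y → A} (hF : ∀ a, MeasurableSet (F ⁻¹' {a})) (π : A → B)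
    (b : B) : μ.real ((fun x => π (F x)) ⁻¹' {b}) =
      ∑ a, if π a = b then μ.real (F ⁻¹' {a}) else 0 := by
  classical
  have h1 : (fun x => π (F x)) ⁻¹' {b} =
      ⋃ a ∈ Finset.univ.filter (fun a => π a = b), F ⁻¹' {a} := by
    ext x
    simp
  rw [h1, measureReal_biUnion_finset, Finset.sum_filter]
  · intro a _ b _ hab
    simp only [Function.onFun]
    rw [Set.disjoint_left]
    intro x h1 h2
    exact hab (by rw [← mem_singleton_iff.1 h1, ← mem_singleton_iff.1 h2])
  · intro a _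
    exact hF a

theorem shannon_comp_le {F : Y → A} (hF : ∀ a, MeasurableSet (F ⁻¹' {a})) (π : A → B) :
    shannon μ (fun x => π (F x)) ≤ shannon μ F := by
  classical
  unfold shannon
  calc ∑ b, Real.negMulLog (μ.real ((fun x => π (F x)) ⁻¹' {b}))
      ≤ ∑ b, ∑ a, (if π a = b then Real.negMulLog (μ.real (F ⁻¹' {a})) else 0) := by
        refine Finset.sum_le_sum fun b _ => ?_
        rw [real_comp hF, ← Finset.sum_filter, ← Finset.sum_filter]
        exact H891.negMulLog_sum_le _ _ fun a => measureReal_nonneg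
    _ = ∑ a, Real.negMulLog (μ.real (F ⁻¹' {a})) := by
        rw [Finset.sum_comm]
        simp

/-- conditioning on more reduces the entropy -/
theorem cond_le {f : Y → A} {Z : Y → D}
    (hF : ∀ q, MeasurableSet ((fun x => (f x, Z x)) ⁻¹' {q})) (π : D → B) :
    shannon μ (fun x => (f x, Z x)) + shannon μ (fun x => π (Z x)) ≤
      shannon μ Z + shannon μ (fun x => (f x, π (Z x))) := by
  classical
  set P : A → D → ℝ := fun a d => μ.real ((fun x => (f x, Z x)) ⁻¹' {(a, d)}) with hP
  have h1 := ssa P (fun a d => measureReal_nonneg) π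
  have e1 : shannon μ (fun x => (f x, Z x)) = ∑ a, ∑ d, Real.negMulLog (P a d) := by
    unfold shannon
    rw [Fintype.sum_prod_type]
  have e2 : shannon μ (fun x => π (Z x)) =
      ∑ b, Real.negMulLog (∑ a, ∑ d, if π d = b then P a d else 0) := by
    unfold shannon
    refine Finset.sum_congr rfl fun b _ => ?_
    congr 1
    have h2 := real_comp (μ := μ) hF (fun q : A × D => π q.2) b
    rw [h2, Fintype.sum_prod_type]
  have e3 : shannon μ Z = ∑ d, Real.negMulLog (∑ a, P a d) := by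
    unfold shannon
    refine Finset.sum_congr rfl fun d _ => ?_
    congr 1
    have h2 := real_comp (μ := μ) hF (fun q : A × D => q.2) d
    rw [Fintype.sum_prod_type] at h2
    refine h2.trans (Finset.sum_congr rfl fun a _ => ?_)
    simp [hP]
  have e4 : shannon μ (fun x => (f x, π (Z x))) =
      ∑ a, ∑ b, Real.negMulLog (∑ d, if π d = b then P a d else 0) := by
    unfold shannon
    rw [Fintype.sum_prod_type]
    refine Finset.sum_congr rfl fun a _ => Finset.sum_congr rfl fun b _ => ?_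
    congr 1
    have h2 := real_comp (μ := μ) hF (fun q : A × D => (q.1, π q.2)) (a, b)
    rw [Fintype.sum_prod_type] at h2
    refine h2.trans ?_
    rw [Finset.sum_eq_single a]
    · refine Finset.sum_congr rfl fun d _ => ?_
      simp [hP]
    · intro a' _ ha'
      refine Finset.sum_eq_zero fun d _ => ?_
      simp [ha']
    · simp
  rw [e1, e2, e3, e4]
  exact h1

end Meas


section KS

variable {X : Type} [MeasurableSpace X] {μ : Measure X} [IsProbabilityMeasure μ]

theorem shannon_inv {A : Type} [Fintype A] {ψ : X → X} (hψ : MeasurePreserving ψ μ μ) {g : X → A}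
    (hg : ∀ a, MeasurableSet (g ⁻¹' {a})) : shannon μ (fun x => g (ψ x)) = shannon μ g := by
  unfold shannon
  refine Finset.sum_congr rfl fun a _ => ?_
  congr 1
  exact hψ.measureReal_preimage (hg a).nullMeasurableSet

variable [TopologicalSpace X] [BorelSpace X] [CompactSpace X] [R1Space X]
  [μ.InnerRegularCompactLTTop] {φ : ℝ → X → X}

theorem tendsto_pair (h : IsFl φ) (hμ : ∀ t, MeasurePreserving (φ t) μ μ) {k : ℕ}
    {f : X → Fin k} (hf : Measurable f) :
    Tendsto (fun t : ℝ => shannon μ (fun x => (f (φ t x), f x))) (𝓝 0) (𝓝 (shannon μ f)) := by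
  have h1 : ∀ a, MeasurableSet (f ⁻¹' {a}) := fun a => hf (measurableSet_singleton a)
  have h2 : ∀ a b, Tendsto (fun t : ℝ => μ.real ((φ t ⁻¹' (f ⁻¹' {a})) ∩ f ⁻¹' {b})) (𝓝 0)
      (𝓝 (μ.real (f ⁻¹' {a} ∩ f ⁻¹' {b}))) := by
    intro a b
    set F : C(ℝ, C(X, X)) := ContinuousMap.curry ⟨fun q : ℝ × X => φ q.1 q.2, h.cont⟩ with hF
    have h3 := tendsto_measure_symmDiff_preimage_nhds_zero (μ := μ) (ν := μ) (l := 𝓝 (0 : ℝ))
      (f := fun t => F t) (g := F 0) (s := f ⁻¹' {a}) (F.continuous.tendsto 0)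
      (Eventually.of_forall fun t => hμ t) (hμ 0) (h1 a).nullMeasurableSet (measure_ne_top _ _)
    have h4 : ∀ t : ℝ, μ ((F t ⁻¹' (f ⁻¹' {a})) ∆ (F 0 ⁻¹' (f ⁻¹' {a}))) =
        μ ((φ t ⁻¹' (f ⁻¹' {a})) ∆ (f ⁻¹' {a})) := by
      intro t
      have e : F 0 ⁻¹' (f ⁻¹' {a}) = f ⁻¹' {a} := by
        ext x
        change f (φ 0 x) = a ↔ f x = a
        rw [h.zero]
      rw [e]
      rfl
    simp only [h4] at h3
    have h5 : Tendsto (fun t : ℝ => μ.real ((φ t ⁻¹' (f ⁻¹' {a})) ∆ (f ⁻¹' {a}))) (𝓝 0)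
        (𝓝 0) := by
      have h6 := (ENNReal.tendsto_toReal ENNReal.zero_ne_top).comp h3
      exact h6
    rw [tendsto_iff_norm_sub_tendsto_zero]
    refine squeeze_zero (fun t => norm_nonneg _) (fun t => ?_) h5
    rw [Real.norm_eq_abs, abs_le]
    set S := φ t ⁻¹' (f ⁻¹' {a}) with hS
    set A := f ⁻¹' {a} with hA
    set B := f ⁻¹' {b} with hB
    have m1 : μ.real (S ∩ B) ≤ μ.real (A ∩ B) + μ.real (S ∆ A) := by
      refine (measureReal_mono ?_).trans (measureReal_union_le _ _)
      intro x hx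
      by_cases hxA : x ∈ A
      · exact Or.inl ⟨hxA, hx.2⟩
      · exact Or.inr (Or.inl ⟨hx.1, hxA⟩)
    have m2 : μ.real (A ∩ B) ≤ μ.real (S ∩ B) + μ.real (S ∆ A) := by
      refine (measureReal_mono ?_).trans (measureReal_union_le _ _)
      intro x hx
      by_cases hxS : x ∈ S
      · exact Or.inl ⟨hxS, hx.2⟩
      · exact Or.inr (Or.inr ⟨hx.1, hxS⟩)
    constructor <;> linarith
  have h3 : ∀ t : ℝ, shannon μ (fun x => (f (φ t x), f x)) =
      ∑ a, ∑ b, Real.negMulLog (μ.real ((φ t ⁻¹' (f ⁻¹' {a})) ∩ f ⁻¹' {b})) := by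
    intro t
    unfold shannon
    rw [Fintype.sum_prod_type]
    refine Finset.sum_congr rfl fun a _ => Finset.sum_congr rfl fun b _ => ?_
    congr 2
    ext x
    simp
  have h4 : shannon μ f = ∑ a, ∑ b, Real.negMulLog (μ.real ((f ⁻¹' {a}) ∩ f ⁻¹' {b})) := by
    have h5 : shannon μ (fun x => (f x, f x)) =
        ∑ a, ∑ b, Real.negMulLog (μ.real ((f ⁻¹' {a}) ∩ f ⁻¹' {b})) := by
      unfold shannon
      rw [Fintype.sum_prod_type]
      refine Finset.sum_congr rfl fun a _ => Finset.sum_congr rfl fun b _ => ?_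
      congr 2
      ext x
      simp
    rw [← h5]
    refine le_antisymm ?_ ?_
    · have h6 := shannon_comp_le (μ := μ) (F := fun x => (f x, f x))
        (fun q => (hf.prodMk hf) (measurableSet_singleton q)) Prod.fst
      exact h6
    · exact shannon_comp_le (μ := μ) h1 fun a => (a, a)
  rw [h4]
  refine Tendsto.congr (fun t => (h3 t).symm) ?_
  refine tendsto_finsetSum _ fun a _ => tendsto_finsetSum _ fun b _ => ?_
  exact (Real.continuous_negMulLog.tendsto _).comp (h2 a b)

theorem ksEntropy_flow_le (h : IsFl φ) (hμ : ∀ t, MeasurePreserving (φ t) μ μ) {s : ℝ}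
    (hs : 0 < s) : ksEntropy μ (φ s) ≤ ENNReal.ofReal s * ksEntropy μ (φ 1) := by
  classical
  conv_lhs => unfold ksEntropy
  refine iSup_le fun k => iSup_le fun f => iSup_le fun hf => ?_
  refine ENNReal.le_of_forall_pos_le_add fun ε hε _ => ?_
  have hε' : (0 : ℝ) < ε := hε
  have hm : ∀ t, Measurable (φ t) := fun t => (h.cont_t t).measurable
  -- the number of subdivisions
  obtain ⟨N, hN, hpair⟩ : ∃ N : ℕ, 0 < N ∧ ∀ t : ℝ, 0 ≤ t → t ≤ 1 / N →
      shannon μ (fun x => (f (φ t x), f x)) ≤ shannon μ f + ε := by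
    have h1 := (tendsto_pair h hμ hf).eventually (gt_mem_nhds (lt_add_of_pos_right _ hε'))
    obtain ⟨δ, hδ, hδ'⟩ := Metric.eventually_nhds_iff.1 h1
    have h4 := tendsto_const_div_atTop_nhds_zero_nat (1 : ℝ)
    obtain ⟨N, hN, hN'⟩ := ((eventually_gt_atTop 0).and
      (h4.eventually (gt_mem_nhds hδ))).exists
    refine ⟨N, hN, fun t ht0 ht => (hδ' ?_).le⟩
    rw [Real.dist_eq, sub_zero, abs_of_nonneg ht0]
    exact ht.trans_lt hN'
  set K := Fintype.card (Fin N → Fin k) with hK
  let e : (Fin N → Fin k) ≃ Fin K := Fintype.equivFin _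
  let F : X → Fin K := fun x => e fun j : Fin N => f (φ ((j : ℕ) / (N : ℝ)) x)
  have hF : Measurable F := by
    have h1 : Measurable fun x => fun j : Fin N => f (φ ((j : ℕ) / (N : ℝ)) x) :=
      measurable_pi_lambda _ fun j => hf.comp (hm _)
    exact (measurable_of_finite e).comp h1
  have key : ∀ n k' : ℕ, k' ≤ n →
      shannon μ (fun x => (name (φ s) f k' x, name (φ 1) F (qn s n) x)) ≤
        shannon μ (name (φ 1) F (qn s n)) + k' * ε := by
    intro n k'
    have hG : Measurable (name (φ 1) F (qn s n)) := measurable_name (hm 1) hF _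
    induction k' with
    | zero =>
      intro _
      rw [Nat.cast_zero, zero_mul, add_zero]
      have h1 := shannon_comp_le (μ := μ) (F := name (φ 1) F (qn s n))
        (fun q => hG (measurableSet_singleton q)) (fun g => ((fun i => i.elim0 : Fin 0 → Fin k), g))
      refine le_trans (le_of_eq ?_) h1
      congr 1
      funext x
      exact Prod.ext (funext fun i => i.elim0) rfl
    | succ k' ih =>
      intro hk
      have hk' : k' < n := hk
      obtain ⟨i, j, t, hj, ht0, ht, hr, hi⟩ := split_time hN (r := (k' : ℝ) * s) (by positivity)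
      have hi' := lt_qn hs hk' hi
      set Z : X → (Fin k' → Fin k) × (Fin (qn s n) → Fin K) :=
        fun x => (name (φ s) f k' x, name (φ 1) F (qn s n) x) with hZ
      have hZm : Measurable Z := (measurable_name (hm s) hf _).prodMk hG
      set fk : X → Fin k := fun x => f ((φ s)^[k'] x) with hfk
      have hfkm : Measurable fk := hf.comp ((hm s).iterate k')
      set π : (Fin k' → Fin k) × (Fin (qn s n) → Fin K) → Fin k :=
        fun d => e.symm (d.2 ⟨i, hi'⟩) ⟨j, hj⟩ with hπ
      have hπZ : ∀ x, π (Z x) = f (φ ((j : ℝ) / N + i) x) := by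
        intro x
        change e.symm (e fun j : Fin N => f (φ ((j : ℕ) / (N : ℝ)) ((φ 1)^[i] x))) ⟨j, hj⟩ = _
        rw [Equiv.symm_apply_apply, h.iterate, ← h.add, mul_one]
      have c1 := cond_le (μ := μ) (f := fk) (Z := Z)
        (fun q => (hfkm.prodMk hZm) (measurableSet_singleton q)) π
      have c2 : shannon μ (fun x => π (Z x)) = shannon μ f := by
        have e1 : (fun x => π (Z x)) = fun x => f (φ ((j : ℝ) / N + i) x) := funext hπZ
        rw [e1]
        exact shannon_inv (hμ _) fun a => hf (measurableSet_singleton a)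
      have c3 : shannon μ (fun x => (fk x, π (Z x))) ≤ shannon μ f + ε := by
        have e1 : (fun x => (fk x, π (Z x))) = fun x =>
            (fun y => (f (φ t y), f y)) (φ ((j : ℝ) / N + i) x) := by
          funext x
          refine Prod.ext ?_ (hπZ x)
          change f ((φ s)^[k'] x) = f (φ t (φ ((j : ℝ) / N + i) x))
          rw [h.iterate, ← h.add, ← hr]
        rw [e1, shannon_inv (g := fun y => (f (φ t y), f y)) (hμ _)
          (fun a => ((hf.comp (hm t)).prodMk hf) (measurableSet_singleton a))]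
        exact hpair t ht0 ht
      have c4 : shannon μ (fun x => (name (φ s) f (k' + 1) x, name (φ 1) F (qn s n) x)) ≤
          shannon μ (fun x => (fk x, Z x)) := by
        have h1 := shannon_comp_le (μ := μ) (F := fun x => (fk x, Z x))
          (fun q => (hfkm.prodMk hZm) (measurableSet_singleton q))
          (fun q => ((Fin.snoc (α := fun _ => Fin k) q.2.1 q.1 : Fin (k' + 1) → Fin k), q.2.2))
        refine le_trans (le_of_eq ?_) h1
        congr 1
        funext x
        refine Prod.ext ?_ rfl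
        funext l
        refine Fin.lastCases ?_ (fun l => ?_) l
        · simp only [Fin.snoc_last]
          rfl
        · simp only [Fin.snoc_castSucc]
          rfl
      have c5 := ih hk'.le
      push_cast
      linarith
  have key2 : ∀ n, shannon μ (name (φ s) f n) ≤
      shannon μ (name (φ 1) F (qn s n)) + ε * n := by
    intro n
    have h1 := shannon_comp_le (μ := μ)
      (F := fun x => (name (φ s) f n x, name (φ 1) F (qn s n) x))
      (fun q => ((measurable_name (hm s) hf _).prodMk (measurable_name (hm 1) hF _))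
        (measurableSet_singleton q)) Prod.fst
    have h2 := h1.trans (key n n le_rfl)
    rw [mul_comm] at h2
    exact h2
  have h3 := rate (u := fun n => shannon μ (name (φ s) f n))
    (v := fun n => shannon μ (name (φ 1) F n)) hs (tendsto_qn hs) (qn_le hs) key2
  rw [ENNReal.ofReal_coe_nnreal] at h3
  refine h3.trans ?_
  gcongr
  unfold ksEntropy
  exact le_iSup_of_le K (le_iSup_of_le F (le_iSup_of_le hF le_rfl))

/-- **Abramov's formula** for continuous flows -/
theorem ksEntropy_flow (h : IsFl φ) (hμ : ∀ t, MeasurePreserving (φ t) μ μ) {s : ℝ}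
    (hs : 0 < s) : ksEntropy μ (φ s) = ENNReal.ofReal s * ksEntropy μ (φ 1) := by
  refine le_antisymm (ksEntropy_flow_le h hμ hs) ?_
  have h1 := ksEntropy_flow_le (h.scale s) (fun t => hμ (s * t)) (s := s⁻¹) (by positivity)
  simp only [mul_inv_cancel₀ hs.ne', mul_one] at h1
  calc ENNReal.ofReal s * ksEntropy μ (φ 1)
      ≤ ENNReal.ofReal s * (ENNReal.ofReal s⁻¹ * ksEntropy μ (φ s)) := by gcongr
    _ = ksEntropy μ (φ s) := by
        rw [← mul_assoc, ← ENNReal.ofReal_mul hs.le, mul_inv_cancel₀ hs.ne', ENNReal.ofReal_one,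
          one_mul]

end KS

end Vale.Agent.P207.H476.Abr
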